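import Crest.Agent.R57.Defs

set_option autoImplicit false

namespace Crest.Agent.R57

open Finset

variable {V : Type*} [Fintype V] [DecidableEq V]

theorem Count_h3_mem_swap (Q : Finset (V × V)) (x y : V) :
    (x, y) ∈ Q.map (Equiv.prodComm V V).toEmbedding ↔ (y, x) ∈ Q := by
  rw [Finset.mem_map_equiv]
  rfl

theorem Count_h3_refl_comp {F G : Finset (V × V)} (hF : Refl F) (hG : Refl G) :
    Refl (comp F G) := fun x => mem_comp.2 ⟨x, hF x, hG x⟩

theorem card_un (Q : Finset (V × V)) (hR : Refl Q) (hA : Anti Q) :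
    (un Q).card + Fintype.card V = 2 * Q.card := by
  have h1 : un Q = Q ∪ Q.map (Equiv.prodComm V V).toEmbedding := by
    ext ⟨x, y⟩
    rw [mem_un, Finset.mem_union, Count_h3_mem_swap]
  have h2 : Q ∩ Q.map (Equiv.prodComm V V).toEmbedding = (univ : Finset V).diag := by
    ext ⟨x, y⟩
    rw [Finset.mem_inter, Count_h3_mem_swap, Finset.mem_diag]
    constructor
    · rintro ⟨h, h'⟩
      exact ⟨mem_univ _, hA x y h h'⟩
    · rintro ⟨_, h⟩
      have h' : x = y := h
      subst h'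
      exact ⟨hR x, hR x⟩
  have h3 := Finset.card_union_add_card_inter Q (Q.map (Equiv.prodComm V V).toEmbedding)
  rw [← h1, h2, Finset.diag_card, Finset.card_univ, Finset.card_map] at h3
  omega

theorem card_dual (P : Finset (V × V)) (hR : Refl P) :
    (dual P).card + P.card = Fintype.card V * Fintype.card V + Fintype.card V := by
  have h1 : dual P ∪ P.map (Equiv.prodComm V V).toEmbedding = univ := by
    ext ⟨x, y⟩
    rw [Finset.mem_union, Count_h3_mem_swap, mem_dual]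
    simp only [mem_univ, iff_true]
    tauto
  have h2 : dual P ∩ P.map (Equiv.prodComm V V).toEmbedding = (univ : Finset V).diag := by
    ext ⟨x, y⟩
    rw [Finset.mem_inter, Count_h3_mem_swap, Finset.mem_diag, mem_dual]
    constructor
    · rintro ⟨h | h, h'⟩
      · exact ⟨mem_univ _, h⟩
      · exact absurd h' h
    · rintro ⟨_, h⟩
      have h' : x = y := h
      subst h'
      exact ⟨Or.inl rfl, hR x⟩
  have h3 := Finset.card_union_add_card_inter (dual P) (P.map (Equiv.prodComm V V).toEmbedding)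
  rw [h1, h2, Finset.diag_card, Finset.card_univ, Finset.card_univ, Finset.card_map,
    Fintype.card_prod] at h3
  omega

theorem Lam_feasible (Γ F : Finset (V × V)) (hR : Refl Γ) (hF : Refl F) (h1 : Anti (comp F Γ))
    (h2 : Anti (comp Γ F)) :
    Lam Γ F = 2 * (comp F Γ).card - Fintype.card V - 2 * F.card := by
  have a1 := card_un (comp F Γ) (Count_h3_refl_comp hF hR) h1
  have a2 : sy (comp Γ F) = ∅ := by
    apply Finset.eq_empty_of_forall_notMem
    rintro ⟨x, y⟩ h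
    obtain ⟨p, q, r⟩ := mem_sy.1 h
    exact r (h2 x y p q)
  unfold Lam
  rw [a2, Finset.card_empty]
  omega

theorem dual_adm (Γ F : Finset (V × V)) (hF : Refl F) : Adm Γ (dual (comp (comp F Γ) Γ)) := by
  refine ⟨fun x => mem_dual.2 (Or.inl rfl), ?_⟩
  intro x y h h'
  rcases mem_dual.1 h with h | h
  · exact h
  · exfalso
    obtain ⟨z, hz1, hz2⟩ := mem_comp.1 h'
    exact h (mem_comp.2 ⟨z, mem_comp.2 ⟨y, hF y, hz1⟩, hz2⟩)

theorem dual_Lam (Γ F : Finset (V × V)) (hR : Refl Γ) (hF : Refl F) (h1 : Anti (comp F Γ)) :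
    Lam Γ (dual (comp (comp F Γ) Γ))
      ≤ 2 * (comp (comp F Γ) Γ).card - 2 * (comp F Γ).card - Fintype.card V := by
  have hK : Refl (comp F Γ) := Count_h3_refl_comp hF hR
  have a1 := card_un (comp F Γ) hK h1
  have a2 := card_dual (comp (comp F Γ) Γ) (Count_h3_refl_comp hK hR)
  have a3 : (un (comp (dual (comp (comp F Γ) Γ)) Γ)).card ≤ Fintype.card V * Fintype.card V := by
    rw [← Fintype.card_prod]
    exact Finset.card_le_univ _
  have key : ∀ u y, (u, y) ∈ comp Γ (dual (comp (comp F Γ) Γ)) → u ≠ y → (y, u) ∉ comp F Γ := by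
    intro u y h hne hyu
    obtain ⟨x, hux, hxy⟩ := mem_comp.1 h
    rcases mem_dual.1 hxy with h' | h'
    · subst h'
      exact hne (h1 u x (mem_comp.2 ⟨u, hF u, hux⟩) hyu)
    · exact h' (mem_comp.2 ⟨u, hyu, hux⟩)
  have hdis : Disjoint (sy (comp Γ (dual (comp (comp F Γ) Γ)))) (un (comp F Γ)) := by
    rw [Finset.disjoint_left]
    rintro ⟨u, y⟩ h h'
    obtain ⟨p, q, r⟩ := mem_sy.1 h
    rcases mem_un.1 h' with h'' | h''
    · exact key y u q (Ne.symm r) h''
    · exact key u y p r h''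
  have a4 : (sy (comp Γ (dual (comp (comp F Γ) Γ)))).card + (un (comp F Γ)).card
      ≤ Fintype.card V * Fintype.card V := by
    rw [← Finset.card_union_of_disjoint hdis, ← Fintype.card_prod]
    exact Finset.card_le_univ _
  unfold Lam
  generalize Fintype.card V * Fintype.card V = N at a2 a3 a4
  omega

theorem hall_step (Γ F : Finset (V × V)) (hA : Anti Γ) (hF : Adm Γ F) (h : ¬ HallCol Γ F) :
    ∃ F', Adm Γ F' ∧ Lam Γ F' < Lam Γ F := by
  unfold HallCol at h
  push Not at h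
  obtain ⟨y, Z, hZ, hlt⟩ := h
  set N : Finset V := univ.filter (fun x => (x, y) ∈ F ∧ ∃ u ∈ Z, (u, x) ∈ Γ) with hN
  have hNmem : ∀ x, x ∈ N ↔ (x, y) ∈ F ∧ ∃ u ∈ Z, (u, x) ∈ Γ := by
    intro x; simp [hN]
  have hyN : y ∉ N := by
    intro hy
    obtain ⟨-, u, hu, huy⟩ := (hNmem y).1 hy
    obtain ⟨-, h2, hne⟩ := mem_sy.1 (hZ u hu)
    obtain ⟨z, hyz, hzu⟩ := mem_comp.1 h2
    have hzu' : z = u := hF.2 z u hzu (mem_comp.2 ⟨y, huy, hyz⟩)
    subst hzu'
    exact hne (hA _ _ huy hyz)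
  have hyZ : y ∉ Z := fun hy => (mem_sy.1 (hZ y hy)).2.2 rfl
  have hsubN : N ×ˢ ({y} : Finset V) ⊆ F := by
    rintro ⟨a, b⟩ hab
    rw [mem_product, mem_singleton] at hab
    obtain ⟨ha, hb⟩ := hab
    simp only at ha hb
    subst hb
    exact ((hNmem a).1 ha).1
  refine ⟨F \ (N ×ˢ {y}), ⟨fun x => ?_, fun a b hab => hF.2 a b (mem_sdiff.1 hab).1⟩, ?_⟩
  · rw [mem_sdiff]
    refine ⟨hF.1 x, fun hx => ?_⟩
    rw [mem_product, mem_singleton] at hx
    obtain ⟨ha, hb⟩ := hx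
    simp only at ha hb
    subst hb
    exact hyN ha
  · have c1 : (un (comp (F \ (N ×ˢ {y})) Γ)).card ≤ (un (comp F Γ)).card := by
      apply card_le_card
      rintro ⟨a, b⟩ hab
      rw [mem_un] at hab ⊢
      rcases hab with hab | hab
      · obtain ⟨c, h1, h2⟩ := mem_comp.1 hab
        exact Or.inl (mem_comp.2 ⟨c, (mem_sdiff.1 h1).1, h2⟩)
      · obtain ⟨c, h1, h2⟩ := mem_comp.1 hab
        exact Or.inr (mem_comp.2 ⟨c, (mem_sdiff.1 h1).1, h2⟩)
    have c2 : (F \ (N ×ˢ {y})).card + N.card = F.card := by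
      have := card_sdiff_add_card_eq_card hsubN
      rwa [card_product, card_singleton, mul_one] at this
    have hmiss : ∀ u ∈ Z, (u, y) ∉ comp Γ (F \ (N ×ˢ {y})) := by
      intro u hu hc
      obtain ⟨x, h1, h2⟩ := mem_comp.1 hc
      rw [mem_sdiff] at h2
      exact h2.2 (mem_product.2 ⟨(hNmem x).2 ⟨h2.1, u, hu, h1⟩, mem_singleton_self y⟩)
    have hmono : ∀ a b, (a, b) ∈ comp Γ (F \ (N ×ˢ {y})) → (a, b) ∈ comp Γ F := by
      intro a b hab
      obtain ⟨c, h1, h2⟩ := mem_comp.1 hab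
      exact mem_comp.2 ⟨c, h1, (mem_sdiff.1 h2).1⟩
    have hd1 : Disjoint (Z ×ˢ ({y} : Finset V)) (({y} : Finset V) ×ˢ Z) := by
      rw [disjoint_left]
      rintro ⟨a, b⟩ h1 h2
      rw [mem_product, mem_singleton] at h1 h2
      have e : a = y := h2.1
      exact hyZ (e ▸ h1.1)
    have hd2 : Disjoint (sy (comp Γ (F \ (N ×ˢ {y}))))
        (Z ×ˢ ({y} : Finset V) ∪ ({y} : Finset V) ×ˢ Z) := by
      rw [disjoint_left]
      rintro ⟨a, b⟩ h1 h2
      obtain ⟨h3, h4, -⟩ := mem_sy.1 h1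
      rcases mem_union.1 h2 with h2 | h2
      · rw [mem_product, mem_singleton] at h2
        have e : b = y := h2.2
        subst e
        exact hmiss a h2.1 h3
      · rw [mem_product, mem_singleton] at h2
        have e : a = y := h2.1
        subst e
        exact hmiss b h2.2 h4
    have c3 : (sy (comp Γ (F \ (N ×ˢ {y})))).card + 2 * Z.card ≤ (sy (comp Γ F)).card := by
      have e : (sy (comp Γ (F \ (N ×ˢ {y}))) ∪
          (Z ×ˢ ({y} : Finset V) ∪ ({y} : Finset V) ×ˢ Z)).card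
          = (sy (comp Γ (F \ (N ×ˢ {y})))).card + 2 * Z.card := by
        rw [card_union_of_disjoint hd2, card_union_of_disjoint hd1, card_product, card_product,
          card_singleton]
        ring
      rw [← e]
      apply card_le_card
      rintro ⟨a, b⟩ hab
      rcases mem_union.1 hab with hab | hab
      · obtain ⟨h1, h2, h3⟩ := mem_sy.1 hab
        exact mem_sy.2 ⟨hmono _ _ h1, hmono _ _ h2, h3⟩
      · rcases mem_union.1 hab with h2 | h2
        · rw [mem_product, mem_singleton] at h2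
          have e : b = y := h2.2
          subst e
          exact hZ a h2.1
        · rw [mem_product, mem_singleton] at h2
          have e : a = y := h2.1
          subst e
          obtain ⟨h3, h4, h5⟩ := mem_sy.1 (hZ b h2.2)
          exact mem_sy.2 ⟨h4, h3, h5.symm⟩
    unfold Lam
    omega

theorem Count_h5_key {Γ F : Finset (V × V)} {x y z u : V} (h1 : (x, y) ∈ F \ conf Γ F)
    (h2 : (z, u) ∈ F) (h3 : (y, z) ∈ Γ) (h4 : (u, x) ∈ Γ) : x = y := by
  obtain ⟨a, b⟩ := mem_sdiff.mp h1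
  by_contra hne
  exact b (mem_conf.mpr ⟨a, hne, z, u, h2, h3, h4⟩)

theorem Count_h5_diag {Γ F : Finset (V × V)} (hA : Anti Γ) (hF : Adm Γ F) {x z : V}
    (h1 : (x, z) ∈ comp (F \ conf Γ F) Γ) (h2 : (z, x) ∈ comp F Γ) : x = z := by
  obtain ⟨y, a1, a2⟩ := mem_comp.mp h1
  obtain ⟨u, b1, b2⟩ := mem_comp.mp h2
  have e1 : x = y := Count_h5_key a1 b1 a2 b2
  subst e1
  have e2 : z = u := hF.2 z u b1 (mem_comp.mpr ⟨x, b2, a2⟩)
  subst e2
  exact hA _ _ a2 b2

theorem Count_h5_mono {Γ F : Finset (V × V)} {x z : V}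
    (h1 : (x, z) ∈ comp (F \ conf Γ F) Γ) : (x, z) ∈ comp F Γ := by
  obtain ⟨y, a1, a2⟩ := mem_comp.mp h1
  exact mem_comp.mpr ⟨y, (mem_sdiff.mp a1).1, a2⟩

theorem remove_conf_anti (Γ F : Finset (V × V)) (hA : Anti Γ) (hF : Adm Γ F) :
    Adm Γ (F \ conf Γ F) ∧ Anti (comp (F \ conf Γ F) Γ) ∧ Anti (comp Γ (F \ conf Γ F)) := by
  refine ⟨⟨fun x => mem_sdiff.mpr ⟨hF.1 x, fun h => (mem_conf.mp h).2.1 rfl⟩,
    fun x y h1 h2 => hF.2 x y (mem_sdiff.mp h1).1 h2⟩,
    fun x z h1 h2 => Count_h5_diag hA hF h1 (Count_h5_mono h2), ?_⟩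
  intro a y h1 h2
  obtain ⟨x, a1, a2⟩ := mem_comp.mp h1
  obtain ⟨z, b1, b2⟩ := mem_comp.mp h2
  have e1 : x = y := Count_h5_key a2 (mem_sdiff.mp b2).1 b1 a1
  have e2 : z = a := Count_h5_key b2 (mem_sdiff.mp a2).1 a1 b1
  subst e1
  subst e2
  exact hA _ _ a1 b1

theorem remove_conf_Lam (Γ F : Finset (V × V)) (hA : Anti Γ) (hF : Adm Γ F) :
    Lam Γ (F \ conf Γ F) + (sy (comp F Γ)).card + (sy (comp Γ F)).card
      ≤ Lam Γ F + 2 * (conf Γ F).card := by
  have hanti := (remove_conf_anti Γ F hA hF).2.2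
  have e1 : sy (comp Γ (F \ conf Γ F)) = ∅ := by
    refine eq_empty_of_forall_notMem ?_
    rintro ⟨x, y⟩ h
    obtain ⟨a, b, c⟩ := mem_sy.mp h
    exact c (hanti x y a b)
  have e2 : (F \ conf Γ F).card + (conf Γ F).card = F.card :=
    card_sdiff_add_card_eq_card (filter_subset _ _)
  have e3 : un (comp (F \ conf Γ F) Γ) ⊆ un (comp F Γ) \ sy (comp F Γ) := by
    rintro ⟨x, z⟩ h
    refine mem_sdiff.mpr ⟨?_, fun hs => ?_⟩
    · exact mem_un.mpr ((mem_un.mp h).imp Count_h5_mono Count_h5_mono)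
    · obtain ⟨a, b, c⟩ := mem_sy.mp hs
      rcases mem_un.mp h with h | h
      · exact c (Count_h5_diag hA hF h b)
      · exact c (Count_h5_diag hA hF h a).symm
  have e4 : sy (comp F Γ) ⊆ un (comp F Γ) := by
    rintro ⟨x, z⟩ h
    exact mem_un.mpr (Or.inl (mem_sy.mp h).1)
  have e5 := card_le_card e3
  have e6 := card_sdiff_add_card_eq_card e4
  unfold Lam
  rw [e1, card_empty]
  omega

end Crest.Agent.R57
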