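import Mathlib

/-! Seymour's second neighbourhood conjecture (row 57).  Relations are finsets of pairs; `Γ` is the
reflexive closure of the arc relation. -/

set_option autoImplicit false

namespace Crest.Agent.R57

open Finset

variable {V : Type*} [Fintype V] [DecidableEq V]

/-- composition of relations -/
def comp (F G : Finset (V × V)) : Finset (V × V) :=
  univ.filter (fun p => ∃ y, (p.1, y) ∈ F ∧ (y, p.2) ∈ G)

/-- image of a set -/
def nb (Γ : Finset (V × V)) (S : Finset V) : Finset V :=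
  univ.filter (fun z => ∃ y ∈ S, (y, z) ∈ Γ)

def row (F : Finset (V × V)) (x : V) : Finset V := univ.filter (fun y => (x, y) ∈ F)

def Refl (F : Finset (V × V)) : Prop := ∀ x, (x, x) ∈ F

def Anti (F : Finset (V × V)) : Prop := ∀ x y, (x, y) ∈ F → (y, x) ∈ F → x = y

/-- no vertex has a large second neighbourhood -/
def Bad (Γ : Finset (V × V)) : Prop :=
  ∀ v, (nb Γ (nb Γ {v})).card + 1 < 2 * (nb Γ {v}).card

/-- the subset inequality -/
def Star (Γ : Finset (V × V)) : Prop :=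
  ∀ S, nb Γ S ≠ S → (nb Γ (nb Γ S)).card + S.card < 2 * (nb Γ S).card

/-- symmetric closure -/
def un (Q : Finset (V × V)) : Finset (V × V) := univ.filter (fun p => p ∈ Q ∨ (p.2, p.1) ∈ Q)

/-- off-diagonal symmetric part -/
def sy (Q : Finset (V × V)) : Finset (V × V) :=
  univ.filter (fun p => p ∈ Q ∧ (p.2, p.1) ∈ Q ∧ p.1 ≠ p.2)

/-- admissible relations -/
def Adm (Γ F : Finset (V × V)) : Prop :=
  Refl F ∧ ∀ x y, (x, y) ∈ F → (y, x) ∈ comp Γ Γ → x = y

/-- the potential -/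
def Lam (Γ F : Finset (V × V)) : ℤ :=
  ((un (comp F Γ)).card : ℤ) + (sy (comp Γ F)).card - 2 * F.card

/-- off-diagonal pairs of `F` in conflict with a pair of `F` -/
def conf (Γ F : Finset (V × V)) : Finset (V × V) :=
  F.filter (fun p => p.1 ≠ p.2 ∧ ∃ z u, (z, u) ∈ F ∧ (p.2, z) ∈ Γ ∧ (u, p.1) ∈ Γ)

/-- complement of the inverse, with the diagonal -/
def dual (P : Finset (V × V)) : Finset (V × V) :=
  univ.filter (fun p => p.1 = p.2 ∨ (p.2, p.1) ∉ P)

/-- Hall's condition in every column -/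
def HallCol (Γ F : Finset (V × V)) : Prop :=
  ∀ (y : V) (Z : Finset V), (∀ u ∈ Z, (u, y) ∈ sy (comp Γ F)) →
    Z.card ≤ (univ.filter (fun x => (x, y) ∈ F ∧ ∃ u ∈ Z, (u, x) ∈ Γ)).card

abbrev Kf (V : Type*) := FractionRing (MvPolynomial (V × V) ℚ)

/-- the generic matrix with support `Γ` -/
noncomputable def gen (Γ : Finset (V × V)) (a b : V) : Kf V :=
  if (a, b) ∈ Γ then algebraMap (MvPolynomial (V × V) ℚ) (Kf V) (MvPolynomial.X (a, b)) else 0

@[simp] theorem mem_comp {F G : Finset (V × V)} {x z : V} :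
    (x, z) ∈ comp F G ↔ ∃ y, (x, y) ∈ F ∧ (y, z) ∈ G := by simp [comp]

@[simp] theorem mem_nb {Γ : Finset (V × V)} {S : Finset V} {z : V} :
    z ∈ nb Γ S ↔ ∃ y ∈ S, (y, z) ∈ Γ := by simp [nb]

@[simp] theorem mem_row {F : Finset (V × V)} {x y : V} : y ∈ row F x ↔ (x, y) ∈ F := by
  simp [row]

theorem mem_un {Q : Finset (V × V)} {x y : V} : (x, y) ∈ un Q ↔ (x, y) ∈ Q ∨ (y, x) ∈ Q := by
  simp [un]

theorem mem_sy {Q : Finset (V × V)} {x y : V} :
    (x, y) ∈ sy Q ↔ (x, y) ∈ Q ∧ (y, x) ∈ Q ∧ x ≠ y := by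
  simp [sy]

theorem mem_conf {Γ F : Finset (V × V)} {x y : V} :
    (x, y) ∈ conf Γ F ↔ (x, y) ∈ F ∧ x ≠ y ∧ ∃ z u, (z, u) ∈ F ∧ (y, z) ∈ Γ ∧ (u, x) ∈ Γ := by
  simp [conf]

theorem mem_dual {P : Finset (V × V)} {x y : V} : (x, y) ∈ dual P ↔ x = y ∨ (y, x) ∉ P := by
  simp [dual]

theorem gen_ne_zero {Γ : Finset (V × V)} {a b : V} : gen Γ a b ≠ 0 ↔ (a, b) ∈ Γ := by
  unfold gen
  by_cases h : (a, b) ∈ Γ
  · simp only [h, if_true, iff_true]
    exact (map_ne_zero_iff _ (IsFractionRing.injective _ _)).2 (MvPolynomial.X_ne_zero _)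
  · simp [h]

end Crest.Agent.R57
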