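import Crest.Agent.R57.Defs

set_option autoImplicit false

namespace Crest.Agent.R57

open Finset Matrix

theorem rank_ineq {K P Q R : Type*} [Field K] [Fintype P] [Fintype Q] [Fintype R]
    (a a' : Matrix P R K) (l l' : Matrix Q R K) (h : a'ᵀ * a = l'ᵀ * l)
    (ha : ∀ v, a *ᵥ v = 0 → v = 0) (ha' : ∀ v, a' *ᵥ v = 0 → v = 0) :
    2 * Fintype.card R ≤ Fintype.card P + Fintype.card Q := by
  classical
  have h1 := LinearMap.finrank_range_add_finrank_ker l.mulVecLin
  have h2 := LinearMap.finrank_range_add_finrank_ker (a'ᵀ).mulVecLin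
  have h3 := LinearMap.finrank_range_add_finrank_ker a'.mulVecLin
  have hk : LinearMap.ker a'.mulVecLin = ⊥ := by
    rw [LinearMap.ker_eq_bot']
    intro v hv
    exact ha' v (by simpa using hv)
  rw [hk, finrank_bot] at h3
  have h4 : Module.finrank K (LinearMap.range (a'ᵀ).mulVecLin) =
      Module.finrank K (LinearMap.range a'.mulVecLin) := Matrix.rank_transpose a'
  have h5 : Module.finrank K (LinearMap.range l.mulVecLin) ≤ Fintype.card Q :=
    Matrix.rank_le_card_height l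
  have hmap : ∀ v ∈ LinearMap.ker l.mulVecLin, a.mulVecLin v ∈ LinearMap.ker (a'ᵀ).mulVecLin := by
    intro v hv
    rw [LinearMap.mem_ker] at hv ⊢
    simp only [Matrix.mulVecLin_apply] at hv ⊢
    rw [Matrix.mulVec_mulVec, h, ← Matrix.mulVec_mulVec, hv, Matrix.mulVec_zero]
  have hinj : Function.Injective (a.mulVecLin.restrict hmap) := by
    rw [← LinearMap.ker_eq_bot, LinearMap.ker_eq_bot']
    intro v hv
    have : a *ᵥ v.1 = 0 := by
      have := congrArg Subtype.val hv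
      simpa [LinearMap.restrict_apply] using this
    exact Subtype.ext (ha _ this)
  have h6 := LinearMap.finrank_le_finrank_of_injective hinj
  simp only [Module.finrank_fintype_fun_eq_card] at h1 h2 h3
  omega

variable {V : Type*} [Fintype V] [DecidableEq V]

theorem generic_solve (Γ : Finset (V × V)) (Z : Finset V) (m : Z → V) (hm : Function.Injective m)
    (hΓ : ∀ v : Z, (v.1, m v) ∈ Γ) (y0 : V) :
    ∃ β : V → Kf V, (∀ z, β z ≠ 0 → ∃ v, m v = z) ∧
      ∀ v ∈ Z, ∑ z, gen Γ v z * β z = if v = y0 then 1 else 0 := by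
  classical
  let B : Matrix Z Z (MvPolynomial (V × V) ℚ) := Matrix.of fun v w =>
    if (v.1, m w) ∈ Γ then MvPolynomial.X (v.1, m w) else 0
  let A : Matrix Z Z (Kf V) := Matrix.of fun v w => gen Γ v.1 (m w)
  have hA : A = (algebraMap (MvPolynomial (V × V) ℚ) (Kf V)).mapMatrix B := by
    ext v w
    simp only [A, B, gen, RingHom.mapMatrix_apply, Matrix.map_apply, Matrix.of_apply]
    split_ifs <;> simp
  let pt : V × V → ℚ := fun p => if ∃ h : p.1 ∈ Z, p.2 = m ⟨p.1, h⟩ then 1 else 0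
  have hB : (MvPolynomial.eval pt).mapMatrix B = 1 := by
    ext v w
    simp only [B, RingHom.mapMatrix_apply, Matrix.map_apply, Matrix.one_apply, Matrix.of_apply]
    by_cases hvw : v = w
    · subst hvw
      have : ∃ h : v.1 ∈ Z, m v = m ⟨v.1, h⟩ := ⟨v.2, rfl⟩
      rw [if_pos (hΓ v), if_pos rfl, MvPolynomial.eval_X]
      exact if_pos this
    · have hn : ¬ ∃ h : v.1 ∈ Z, m w = m ⟨v.1, h⟩ := by
        rintro ⟨h, hh⟩
        exact hvw (hm hh).symm
      rw [if_neg hvw]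
      split_ifs
      · rw [MvPolynomial.eval_X]
        simp only [pt]
        rw [if_neg hn]
      · simp
  have hdB : B.det ≠ 0 := by
    intro h0
    have := RingHom.map_det (MvPolynomial.eval pt) B
    rw [hB, h0] at this
    simp at this
  have hdA : A.det ≠ 0 := by
    rw [hA, ← RingHom.map_det]
    exact (map_ne_zero_iff _ (IsFractionRing.injective _ _)).2 hdB
  let e : Z → Kf V := fun v => if v.1 = y0 then 1 else 0
  let c : Z → Kf V := A⁻¹ *ᵥ e
  have hc : A *ᵥ c = e := by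
    simp only [c]
    rw [Matrix.mulVec_mulVec, Matrix.mul_nonsing_inv _ (isUnit_iff_ne_zero.2 hdA), Matrix.one_mulVec]
  refine ⟨fun z => ∑ w, if m w = z then c w else 0, ?_, ?_⟩
  · intro z hz
    by_contra hcon
    push Not at hcon
    exact hz (Finset.sum_eq_zero fun w _ => if_neg (hcon w))
  · intro v hv
    have h1 := congrFun hc ⟨v, hv⟩
    simp only [Matrix.mulVec, dotProduct, A, e, Matrix.of_apply] at h1
    rw [← h1]
    simp only [Finset.mul_sum]
    rw [Finset.sum_comm]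
    refine Finset.sum_congr rfl fun w _ => ?_
    simp only [mul_ite, mul_zero]
    rw [Finset.sum_ite_eq]
    simp

theorem column_solve (Γ F : Finset (V × V)) (hH : HallCol Γ F) (u0 y0 : V) :
    ∃ β : V → Kf V, (∀ z, β z ≠ 0 → (z, u0) ∈ F) ∧
      ∀ v, (v, u0) ∈ sy (comp Γ F) → ∑ z, gen Γ v z * β z = if v = y0 then 1 else 0 := by
  classical
  let Z : Finset V := univ.filter (fun v => (v, u0) ∈ sy (comp Γ F))
  have hZ : ∀ v, v ∈ Z ↔ (v, u0) ∈ sy (comp Γ F) := by
    intro v; simp only [Z, mem_filter, mem_univ, true_and]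
  let t : Z → Finset V := fun v => univ.filter (fun x => (x, u0) ∈ F ∧ (v.1, x) ∈ Γ)
  have hall : ∀ s : Finset Z, s.card ≤ (s.biUnion t).card := by
    intro s
    have h1 := hH u0 (s.map (Function.Embedding.subtype _)) (by
      intro u hu
      obtain ⟨v, _, rfl⟩ := mem_map.1 hu
      exact (hZ _).1 v.2)
    rw [card_map] at h1
    refine h1.trans (card_le_card ?_)
    intro x hx
    obtain ⟨hx1, u, hu, hux⟩ := (mem_filter.1 hx).2
    obtain ⟨v, hv, rfl⟩ := mem_map.1 hu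
    exact mem_biUnion.2 ⟨v, hv, mem_filter.2 ⟨mem_univ _, hx1, hux⟩⟩
  obtain ⟨m, hm, hmt⟩ := (Finset.all_card_le_biUnion_card_iff_exists_injective t).1 hall
  have hmt' : ∀ v : Z, (m v, u0) ∈ F ∧ (v.1, m v) ∈ Γ := fun v => (mem_filter.1 (hmt v)).2
  obtain ⟨β, hβ1, hβ2⟩ := generic_solve Γ Z m hm (fun v => (hmt' v).2) y0
  refine ⟨β, ?_, fun v hv => hβ2 v ((hZ v).2 hv)⟩
  intro z hz
  obtain ⟨v, rfl⟩ := hβ1 z hz
  exact (hmt' v).1

theorem inj_row (Γ F : Finset (V × V)) (hR : Refl Γ) (hF : Adm Γ F) (hH : HallCol Γ F) (x0 : V)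
    (α : V → Kf V) (hα : ∀ y, α y ≠ 0 → (x0, y) ∈ conf Γ F)
    (h0 : ∀ z, (x0, z) ∈ sy (comp F Γ) → ∑ y, α y * gen Γ y z = 0) : ∀ y, α y = 0 := by
  classical
  intro y0
  by_contra hy0
  obtain ⟨hxy0, hne0, z0, u0, hzu0, hyz0, hux0⟩ := mem_conf.1 (hα y0 hy0)
  obtain ⟨β, hβ1, hβ2⟩ := column_solve Γ F hH u0 y0
  have key1 : ∀ y, α y * ∑ z, gen Γ y z * β z = if y = y0 then α y else 0 := by
    intro y
    by_cases hy : α y = 0
    · simp [hy]
    obtain ⟨hxy, hne, -⟩ := mem_conf.1 (hα y hy)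
    have hyu : y ≠ u0 := by
      rintro rfl
      exact hne (hF.2 x0 y hxy (mem_comp.2 ⟨x0, hux0, hR x0⟩))
    by_cases hc : (y, u0) ∈ comp Γ F
    · have hs : (y, u0) ∈ sy (comp Γ F) :=
        mem_sy.2 ⟨hc, mem_comp.2 ⟨x0, hux0, hxy⟩, hyu⟩
      rw [hβ2 y hs]
      split_ifs <;> simp
    · have hne' : y ≠ y0 := by
        rintro rfl
        exact hc (mem_comp.2 ⟨z0, hyz0, hzu0⟩)
      rw [if_neg hne', Finset.sum_eq_zero, mul_zero]
      intro z _
      by_contra hz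
      have h1 : gen Γ y z ≠ 0 := left_ne_zero_of_mul hz
      have h2 : β z ≠ 0 := right_ne_zero_of_mul hz
      exact hc (mem_comp.2 ⟨z, gen_ne_zero.1 h1, hβ1 z h2⟩)
  have key2 : ∀ z, (∑ y, α y * gen Γ y z) * β z = 0 := by
    intro z
    by_cases hz : β z = 0
    · simp [hz]
    have hzu := hβ1 z hz
    by_cases hc : (x0, z) ∈ comp F Γ ∧ x0 ≠ z
    · rw [h0 z (mem_sy.2 ⟨hc.1, mem_comp.2 ⟨u0, hzu, hux0⟩, hc.2⟩), zero_mul]
    · rw [Finset.sum_eq_zero, zero_mul]
      intro y _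
      by_contra hy
      have h1 : α y ≠ 0 := left_ne_zero_of_mul hy
      have h2 : (y, z) ∈ Γ := gen_ne_zero.1 (right_ne_zero_of_mul hy)
      obtain ⟨hxy, hne, -⟩ := mem_conf.1 (hα y h1)
      apply hc
      refine ⟨mem_comp.2 ⟨y, hxy, h2⟩, ?_⟩
      rintro rfl
      exact hne (hF.2 x0 y hxy (mem_comp.2 ⟨x0, h2, hR x0⟩))
  have e1 : ∑ y, α y * ∑ z, gen Γ y z * β z = α y0 := by
    simp only [key1]
    simp
  have e2 : ∑ y, α y * ∑ z, gen Γ y z * β z = ∑ z, (∑ y, α y * gen Γ y z) * β z := by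
    simp only [Finset.mul_sum, Finset.sum_mul]
    rw [Finset.sum_comm]
    refine Finset.sum_congr rfl fun z _ => Finset.sum_congr rfl fun y _ => ?_
    ring
  apply hy0
  rw [← e1, e2]
  exact Finset.sum_eq_zero fun z _ => key2 z

omit [Fintype V] in
theorem rank_h8_sum {K : Type*} [Field K] (S : Finset (V × V)) (f : V × V → K) (a : V × V) :
    ∑ p : S, (if p.1 = a then f p.1 else 0) = if a ∈ S then f a else 0 := by
  rw [Finset.sum_coe_sort S (fun p => if p = a then f p else 0)]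
  simp [Finset.sum_ite_eq']

theorem rank_h8_inj (Γ F : Finset (V × V)) (hR : Refl Γ) (hF : Adm Γ F) (hH : HallCol Γ F)
    (v : conf Γ F → Kf V)
    (hv : ∀ x z, (x, z) ∈ sy (comp F Γ) →
      ∑ r : conf Γ F, (if x = r.1.1 then gen Γ r.1.2 z else 0) * v r = 0) : v = 0 := by
  classical
  funext r0
  let w : V × V → Kf V := fun p => if h : p ∈ conf Γ F then v ⟨p, h⟩ else 0
  have hw : ∀ r : conf Γ F, w r.1 = v r := fun r => by simp [w, r.2]
  have key := inj_row Γ F hR hF hH r0.1.1 (fun y => w (r0.1.1, y))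
    (fun y hy => by
      by_contra hc
      exact hy (by simp [w, hc]))
    (fun z hz => by
      have h1 := hv _ _ hz
      have h2 : ∑ r : conf Γ F, (if r0.1.1 = r.1.1 then gen Γ r.1.2 z else 0) * v r =
          ∑ p ∈ conf Γ F, (if r0.1.1 = p.1 then gen Γ p.2 z else 0) * w p := by
        rw [← Finset.sum_coe_sort (conf Γ F)
          (fun p => (if r0.1.1 = p.1 then gen Γ p.2 z else 0) * w p)]
        exact Finset.sum_congr rfl fun r _ => by rw [hw]
      have h3 : ∑ p ∈ conf Γ F, (if r0.1.1 = p.1 then gen Γ p.2 z else 0) * w p =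
          ∑ p : V × V, (if r0.1.1 = p.1 then gen Γ p.2 z else 0) * w p := by
        refine Finset.sum_subset (Finset.subset_univ _) fun p _ hp => ?_
        simp [w, hp]
      rw [h2, h3, Fintype.sum_prod_type, Finset.sum_eq_single r0.1.1] at h1
      · rw [← h1]
        exact Finset.sum_congr rfl fun y _ => by simp [mul_comm]
      · intro b _ hb
        exact Finset.sum_eq_zero fun y _ => by simp [Ne.symm hb]
      · simp)
  have := key r0.1.2
  simpa [hw] using this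

theorem conf_card (Γ F : Finset (V × V)) (hR : Refl Γ) (hF : Adm Γ F) (hH : HallCol Γ F) :
    2 * (conf Γ F).card ≤ (sy (comp F Γ)).card + (sy (comp Γ F)).card := by
  classical
  let a : Matrix (sy (comp F Γ)) (conf Γ F) (Kf V) :=
    Matrix.of fun p r => if p.1.1 = r.1.1 then gen Γ r.1.2 p.1.2 else 0
  let a' : Matrix (sy (comp F Γ)) (conf Γ F) (Kf V) :=
    Matrix.of fun p r => if p.1.2 = r.1.1 then gen Γ r.1.2 p.1.1 else 0
  let l : Matrix (sy (comp Γ F)) (conf Γ F) (Kf V) :=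
    Matrix.of fun p r => if p.1.2 = r.1.2 then gen Γ p.1.1 r.1.1 else 0
  let l' : Matrix (sy (comp Γ F)) (conf Γ F) (Kf V) :=
    Matrix.of fun p r => if p.1.1 = r.1.2 then gen Γ p.1.2 r.1.1 else 0
  have h : a'ᵀ * a = l'ᵀ * l := by
    ext ⟨⟨z1, u1⟩, h1⟩ ⟨⟨x1, y1⟩, h2⟩
    have e1 : (a'ᵀ * a) ⟨(z1, u1), h1⟩ ⟨(x1, y1), h2⟩ =
        if (x1, z1) ∈ sy (comp F Γ) then gen Γ u1 x1 * gen Γ y1 z1 else 0 := by
      rw [Matrix.mul_apply, ← rank_h8_sum (sy (comp F Γ))
        (fun _ => gen Γ u1 x1 * gen Γ y1 z1) (x1, z1)]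
      refine Finset.sum_congr rfl fun ⟨⟨x, z⟩, hp⟩ _ => ?_
      simp only [a, a', Matrix.transpose_apply, Matrix.of_apply, Prod.mk.injEq]
      by_cases hx : x = x1 <;> by_cases hz : z = z1 <;> simp [hx, hz]
    have e2 : (l'ᵀ * l) ⟨(z1, u1), h1⟩ ⟨(x1, y1), h2⟩ =
        if (u1, y1) ∈ sy (comp Γ F) then gen Γ u1 x1 * gen Γ y1 z1 else 0 := by
      rw [Matrix.mul_apply, ← rank_h8_sum (sy (comp Γ F))
        (fun _ => gen Γ u1 x1 * gen Γ y1 z1) (u1, y1)]
      refine Finset.sum_congr rfl fun ⟨⟨u, y⟩, hp⟩ _ => ?_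
      simp only [l, l', Matrix.transpose_apply, Matrix.of_apply, Prod.mk.injEq]
      by_cases hx : u = u1 <;> by_cases hz : y = y1 <;> simp [hx, hz, mul_comm]
    rw [e1, e2]
    by_cases h0 : gen Γ u1 x1 * gen Γ y1 z1 = 0
    · simp [h0]
    · have hux : (u1, x1) ∈ Γ := gen_ne_zero.1 (left_ne_zero_of_mul h0)
      have hyz : (y1, z1) ∈ Γ := gen_ne_zero.1 (right_ne_zero_of_mul h0)
      obtain ⟨hxy, hne, -⟩ := mem_conf.1 h2
      obtain ⟨hzu, -, -⟩ := mem_conf.1 h1
      have p1 : (x1, z1) ∈ sy (comp F Γ) := by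
        refine mem_sy.2 ⟨mem_comp.2 ⟨y1, hxy, hyz⟩, mem_comp.2 ⟨u1, hzu, hux⟩, ?_⟩
        rintro rfl
        exact hne (hF.2 _ _ hxy (mem_comp.2 ⟨_, hyz, hR _⟩))
      have p2 : (u1, y1) ∈ sy (comp Γ F) := by
        refine mem_sy.2 ⟨mem_comp.2 ⟨x1, hux, hxy⟩, mem_comp.2 ⟨z1, hyz, hzu⟩, ?_⟩
        rintro rfl
        exact hne (hF.2 _ _ hxy (mem_comp.2 ⟨_, hux, hR _⟩))
      rw [if_pos p1, if_pos p2]
  have ha : ∀ v, a *ᵥ v = 0 → v = 0 := fun v hv =>
    rank_h8_inj Γ F hR hF hH v fun x z hxz => by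
      have := congrFun hv ⟨(x, z), hxz⟩
      simpa [a, Matrix.mulVec, dotProduct] using this
  have ha' : ∀ v, a' *ᵥ v = 0 → v = 0 := fun v hv =>
    rank_h8_inj Γ F hR hF hH v fun x z hxz => by
      have hzx : (z, x) ∈ sy (comp F Γ) := by
        obtain ⟨q1, q2, q3⟩ := mem_sy.1 hxz
        exact mem_sy.2 ⟨q2, q1, q3.symm⟩
      have := congrFun hv ⟨(z, x), hzx⟩
      simpa [a', Matrix.mulVec, dotProduct] using this
  have := rank_ineq a a' l l' h ha ha'
  simpa using this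

end Crest.Agent.R57
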