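import Crest.Agent.R57.Prune
import Crest.Agent.R57.Count
import Crest.Agent.R57.Rank

set_option autoImplicit false

namespace Crest.Agent.R57

open Finset

variable {V : Type*} [Fintype V] [DecidableEq V]

theorem not_bad [Nonempty V] (Γ : Finset (V × V)) (hR : Refl Γ) (hA : Anti Γ) : ¬ Bad Γ := by
  classical
  intro hB
  obtain ⟨Γ, hR, hA, hB, hS⟩ := exists_star ⟨Γ, hR, hA, hB⟩
  have hne : (univ.filter (Adm Γ)).Nonempty := by
    refine ⟨univ.filter (fun p => p.1 = p.2), mem_filter.2 ⟨mem_univ _, ?_, ?_⟩⟩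
    · intro x; simp
    · intro x y h _; simpa using h
  obtain ⟨F, hF, hmin⟩ := exists_min_image _ (Lam Γ) hne
  have hF : Adm Γ F := (mem_filter.1 hF).2
  have hmin' : ∀ F', Adm Γ F' → Lam Γ F ≤ Lam Γ F' := fun F' h =>
    hmin F' (mem_filter.2 ⟨mem_univ _, h⟩)
  have hH : HallCol Γ F := by
    by_contra h
    obtain ⟨F', h1, h2⟩ := hall_step Γ F hA hF h
    exact absurd (hmin' F' h1) (not_le.2 h2)
  obtain ⟨h1, h2, h3⟩ := remove_conf_anti Γ F hA hF
  have h4 := remove_conf_Lam Γ F hA hF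
  have h5 := conf_card Γ F hR hF hH
  have h6 := Lam_feasible Γ _ hR h1.1 h2 h3
  have h7 := dual_Lam Γ _ hR h1.1 h2
  have h8 := hmin' _ (dual_adm Γ _ h1.1)
  have h9 := rows_sum Γ _ hR hB hS h1.1 h2
  omega

end Crest.Agent.R57
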