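import Crest.Agent.R57.Defs

set_option autoImplicit false

namespace Crest.Agent.R57

open Finset

variable {V : Type*} [Fintype V] [DecidableEq V]

theorem exists_T (Γ : Finset (V × V)) (hR : Refl Γ) (S : Finset V) (hS : nb Γ S ≠ S)
    (h : 2 * (nb Γ S).card ≤ (nb Γ (nb Γ S)).card + S.card) :
    ∃ T, T ⊆ nb Γ S \ S ∧ T ≠ nb Γ S \ S ∧
      ∀ T', T' ⊆ (nb Γ S \ S) \ T → 2 * T'.card ≤ (nb Γ T' \ (S ∪ nb Γ T)).card := by
  classical
  have hsub : ∀ X : Finset V, X ⊆ nb Γ X := fun X x hx => mem_nb.2 ⟨x, hx, hR x⟩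
  set B := nb Γ S \ S with hB
  have hBne : B ≠ ∅ := by
    intro h0
    apply hS
    exact Finset.Subset.antisymm (Finset.sdiff_eq_empty_iff_subset.1 h0) (hsub S)
  let ψ : Finset V → ℤ := fun T => ((nb Γ T \ S).card : ℤ) - 2 * T.card
  have hψ0 : ψ ∅ = 0 := by
    have : nb Γ (∅ : Finset V) = ∅ := by ext z; simp
    simp [ψ, this]
  have hψB : 0 ≤ ψ B := by
    have e1 : nb Γ B \ S = nb Γ (nb Γ S) \ S := by
      ext z
      simp only [Finset.mem_sdiff, hB]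
      constructor
      · rintro ⟨h1, h2⟩
        obtain ⟨y, hy, hyz⟩ := mem_nb.1 h1
        exact ⟨mem_nb.2 ⟨y, (Finset.mem_sdiff.1 hy).1, hyz⟩, h2⟩
      · rintro ⟨h1, h2⟩
        obtain ⟨y, hy, hyz⟩ := mem_nb.1 h1
        by_cases hyS : y ∈ S
        · exact ⟨mem_nb.2 ⟨z, Finset.mem_sdiff.2 ⟨mem_nb.2 ⟨y, hyS, hyz⟩, h2⟩, hR z⟩, h2⟩
        · exact ⟨mem_nb.2 ⟨y, Finset.mem_sdiff.2 ⟨hy, hyS⟩, hyz⟩, h2⟩
    have e2 : (nb Γ (nb Γ S) \ S).card + S.card = (nb Γ (nb Γ S)).card :=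
      Finset.card_sdiff_add_card_eq_card ((hsub S).trans (hsub _))
    have e3 : B.card + S.card = (nb Γ S).card := Finset.card_sdiff_add_card_eq_card (hsub S)
    simp only [ψ, e1]
    omega
  obtain ⟨T0, hT0, hmin0⟩ := Finset.exists_min_image B.powerset ψ ⟨∅, by simp⟩
  have key : ∃ T, T ⊆ B ∧ T ≠ B ∧ ∀ T', T' ⊆ B → ψ T ≤ ψ T' := by
    by_cases hTB : T0 = B
    · refine ⟨∅, Finset.empty_subset _, hBne.symm, fun T' hT' => ?_⟩
      have := hmin0 T' (Finset.mem_powerset.2 hT')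
      rw [hTB] at this
      omega
    · exact ⟨T0, Finset.mem_powerset.1 hT0, hTB, fun T' hT' => hmin0 T' (Finset.mem_powerset.2 hT')⟩
  obtain ⟨T, hTB, hTne, hmin⟩ := key
  refine ⟨T, hTB, hTne, fun T' hT' => ?_⟩
  have hU : T ∪ T' ⊆ B := Finset.union_subset hTB (hT'.trans Finset.sdiff_subset)
  have hdisj : Disjoint T T' := by
    rw [Finset.disjoint_left]
    intro a ha ha'
    exact (Finset.mem_sdiff.1 (hT' ha')).2 ha
  have c1 : (T ∪ T').card = T.card + T'.card := Finset.card_union_of_disjoint hdisj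
  have c2 : nb Γ (T ∪ T') \ S ⊆ (nb Γ T \ S) ∪ (nb Γ T' \ (S ∪ nb Γ T)) := by
    intro z hz
    obtain ⟨h1, h2⟩ := Finset.mem_sdiff.1 hz
    obtain ⟨y, hy, hyz⟩ := mem_nb.1 h1
    by_cases hzT : z ∈ nb Γ T
    · exact Finset.mem_union_left _ (Finset.mem_sdiff.2 ⟨hzT, h2⟩)
    · refine Finset.mem_union_right _ (Finset.mem_sdiff.2 ⟨?_, ?_⟩)
      · rcases Finset.mem_union.1 hy with hy | hy
        · exact absurd (mem_nb.2 ⟨y, hy, hyz⟩) hzT
        · exact mem_nb.2 ⟨y, hy, hyz⟩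
      · intro hh
        rcases Finset.mem_union.1 hh with hh | hh
        · exact h2 hh
        · exact hzT hh
  have c3 := (Finset.card_le_card c2).trans (Finset.card_union_le _ _)
  have c4 := hmin _ hU
  simp only [ψ, c1] at c4
  push_cast at c4
  omega

theorem prune (Γ : Finset (V × V)) (hR : Refl Γ) (hB : Bad Γ) (S T : Finset V)
    (hT : T ⊆ nb Γ S \ S)
    (h : ∀ T', T' ⊆ (nb Γ S \ S) \ T → 2 * T'.card ≤ (nb Γ T' \ (S ∪ nb Γ T)).card) :
    Bad (Γ.filter (fun p => ¬ (p.1 ∈ S ∧ p.2 ∈ (nb Γ S \ S) \ T))) := by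
  intro v
  set G1 := Γ.filter (fun p => ¬ (p.1 ∈ S ∧ p.2 ∈ (nb Γ S \ S) \ T)) with hG1
  have hmem : ∀ a b : V, (a, b) ∈ G1 ↔ (a, b) ∈ Γ ∧ ¬ (a ∈ S ∧ b ∈ (nb Γ S \ S) \ T) := by
    intro a b
    rw [hG1, Finset.mem_filter]
  have hsub : nb G1 (nb G1 {v}) ⊆ nb Γ (nb Γ {v}) := by
    intro z hz
    obtain ⟨y, hy, hyz⟩ := mem_nb.1 hz
    obtain ⟨w, hw, hwy⟩ := mem_nb.1 hy
    exact mem_nb.2 ⟨y, mem_nb.2 ⟨w, hw, ((hmem _ _).1 hwy).1⟩, ((hmem _ _).1 hyz).1⟩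
  have hBv := hB v
  by_cases hv : v ∈ S
  · set T1 := nb Γ {v} ∩ ((nb Γ S \ S) \ T) with hT1
    have h1 : nb G1 {v} = nb Γ {v} \ ((nb Γ S \ S) \ T) := by
      ext y
      rw [Finset.mem_sdiff, mem_nb, mem_nb]
      constructor
      · rintro ⟨w, hw, hwy⟩
        have hwv : w = v := Finset.mem_singleton.1 hw
        subst hwv
        exact ⟨⟨w, hw, ((hmem _ _).1 hwy).1⟩, fun hy => ((hmem _ _).1 hwy).2 ⟨hv, hy⟩⟩
      · rintro ⟨⟨w, hw, hwy⟩, hy⟩
        exact ⟨w, hw, (hmem _ _).2 ⟨hwy, fun hh => hy hh.2⟩⟩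
    have h2 : (nb G1 {v}).card + T1.card = (nb Γ {v}).card := by
      rw [h1, hT1]
      exact Finset.card_sdiff_add_card_inter _ _
    have key : ∀ a b : V, a ∈ S → (a, b) ∈ G1 → b ∈ S ∨ b ∈ T := by
      intro a b ha hab
      obtain ⟨h3, h4⟩ := (hmem _ _).1 hab
      by_contra hcon
      push Not at hcon
      exact h4 ⟨ha, Finset.mem_sdiff.2 ⟨Finset.mem_sdiff.2 ⟨mem_nb.2 ⟨a, ha, h3⟩, hcon.1⟩, hcon.2⟩⟩
    have h3 : nb G1 (nb G1 {v}) ⊆ S ∪ nb Γ T := by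
      intro z hz
      obtain ⟨y, hy, hyz⟩ := mem_nb.1 hz
      obtain ⟨w, hw, hwy⟩ := mem_nb.1 hy
      have hwv : w = v := Finset.mem_singleton.1 hw
      subst hwv
      rcases key _ _ hv hwy with hyS | hyT
      · rcases key _ _ hyS hyz with hzS | hzT
        · exact Finset.mem_union_left _ hzS
        · exact Finset.mem_union_right _ (mem_nb.2 ⟨z, hzT, hR z⟩)
      · exact Finset.mem_union_right _ (mem_nb.2 ⟨y, hyT, ((hmem _ _).1 hyz).1⟩)
    have h4 := h T1 Finset.inter_subset_right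
    have h5 : nb Γ T1 \ (S ∪ nb Γ T) ⊆ nb Γ (nb Γ {v}) := by
      intro z hz
      obtain ⟨y, hy, hyz⟩ := mem_nb.1 (Finset.mem_sdiff.1 hz).1
      exact mem_nb.2 ⟨y, (Finset.mem_inter.1 hy).1, hyz⟩
    have h6 : Disjoint (nb G1 (nb G1 {v})) (nb Γ T1 \ (S ∪ nb Γ T)) := by
      rw [Finset.disjoint_left]
      intro z hz hz'
      exact (Finset.mem_sdiff.1 hz').2 (h3 hz)
    have h7 := Finset.card_le_card (Finset.union_subset hsub h5)
    rw [Finset.card_union_of_disjoint h6] at h7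
    omega
  · have h1 : nb G1 {v} = nb Γ {v} := by
      ext y
      rw [mem_nb, mem_nb]
      constructor
      · rintro ⟨w, hw, hwy⟩
        exact ⟨w, hw, ((hmem _ _).1 hwy).1⟩
      · rintro ⟨w, hw, hwy⟩
        have hwv : w = v := Finset.mem_singleton.1 hw
        subst hwv
        exact ⟨w, hw, (hmem _ _).2 ⟨hwy, fun hh => hv hh.1⟩⟩
    have h2 := Finset.card_le_card hsub
    rw [h1] at h2 ⊢
    omega

theorem exists_star (h : ∃ Γ : Finset (V × V), Refl Γ ∧ Anti Γ ∧ Bad Γ) :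
    ∃ Γ : Finset (V × V), Refl Γ ∧ Anti Γ ∧ Bad Γ ∧ Star Γ := by
  classical
  obtain ⟨Γ0, h0⟩ := h
  obtain ⟨Γ, hΓ, hmin⟩ := Finset.exists_min_image
    (univ.filter (fun Γ : Finset (V × V) => Refl Γ ∧ Anti Γ ∧ Bad Γ)) Finset.card
    ⟨Γ0, mem_filter.2 ⟨mem_univ _, h0⟩⟩
  obtain ⟨hR, hA, hB⟩ := (mem_filter.1 hΓ).2
  refine ⟨Γ, hR, hA, hB, fun S hS => ?_⟩
  by_contra hlt
  obtain ⟨T, hT, hne, hT'⟩ := exists_T Γ hR S hS (not_lt.1 hlt)
  have hbad := prune Γ hR hB S T hT hT'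
  have hle := hmin (Γ.filter (fun p => ¬ (p.1 ∈ S ∧ p.2 ∈ (nb Γ S \ S) \ T)))
    (mem_filter.2 ⟨mem_univ _, ?_, ?_, hbad⟩)
  · refine absurd hle (not_le.2 (card_lt_card ?_))
    obtain ⟨b, hb, hbT⟩ := exists_of_ssubset (ssubset_of_subset_of_ne hT hne)
    obtain ⟨y, hy, hyb⟩ := mem_nb.1 (mem_sdiff.1 hb).1
    exact filter_ssubset.2 ⟨(y, b), hyb, fun h' => h' ⟨hy, mem_sdiff.2 ⟨hb, hbT⟩⟩⟩
  · intro x
    exact mem_filter.2 ⟨hR x, fun h' => (mem_sdiff.1 (mem_sdiff.1 h'.2).1).2 h'.1⟩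
  · intro x y h1 h2
    exact hA x y (mem_filter.1 h1).1 (mem_filter.1 h2).1

theorem exists_row_not_closed [Nonempty V] (Γ F : Finset (V × V)) (hR : Refl Γ) (hB : Bad Γ)
    (hF : Refl F) (hA : Anti (comp F Γ)) : ∃ x, nb Γ (row F x) ≠ row F x := by
  classical
  by_contra hall
  have hcl : ∀ x, nb Γ (row F x) = row F x := fun x => by
    by_contra h'; exact hall ⟨x, h'⟩
  have hout : ∀ v, ∃ y, y ≠ v ∧ (v, y) ∈ Γ := by
    intro v
    by_contra h'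
    have e : nb Γ {v} = {v} := by
      ext z
      simp only [mem_nb, mem_singleton, exists_eq_left]
      constructor
      · intro hz
        by_contra hzv
        exact h' ⟨z, hzv, hz⟩
      · rintro rfl
        exact hR _
    have := hB v
    rw [e, e, card_singleton] at this
    omega
  have huniv : nb Γ (univ : Finset V) = univ := by
    ext z
    simp only [mem_nb, mem_univ, true_and, iff_true]
    exact ⟨z, hR z⟩
  obtain ⟨T, hT, hmin⟩ := Finset.exists_min_image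
    (univ.filter (fun T : Finset V => T.Nonempty ∧ nb Γ T = T)) Finset.card
    ⟨univ, mem_filter.2 ⟨mem_univ _, univ_nonempty, huniv⟩⟩
  obtain ⟨⟨x, hx⟩, hTc⟩ := (mem_filter.1 hT).2
  have hsub : ∀ a ∈ T, ∀ b ∈ T, (a, b) ∈ F := by
    intro a ha b hb
    have hc : nb Γ (row F a ∩ T) = row F a ∩ T := by
      ext z
      constructor
      · intro hz
        obtain ⟨y, hy, hyz⟩ := mem_nb.1 hz
        refine mem_inter.2 ⟨?_, ?_⟩
        · rw [← hcl a]; exact mem_nb.2 ⟨y, (mem_inter.1 hy).1, hyz⟩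
        · rw [← hTc]; exact mem_nb.2 ⟨y, (mem_inter.1 hy).2, hyz⟩
      · intro hz
        exact mem_nb.2 ⟨z, hz, hR z⟩
    have hle := hmin (row F a ∩ T)
      (mem_filter.2 ⟨mem_univ _, ⟨a, mem_inter.2 ⟨mem_row.2 (hF a), ha⟩⟩, hc⟩)
    have he : row F a ∩ T = T := eq_of_subset_of_card_le inter_subset_right hle
    rw [← he] at hb
    exact mem_row.1 (mem_inter.1 hb).1
  obtain ⟨y, hyx, hxy⟩ := hout x
  have hy : y ∈ T := by rw [← hTc]; exact mem_nb.2 ⟨x, hx, hxy⟩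
  exact hyx (hA y x (mem_comp.2 ⟨x, hsub y hy x hx, hR x⟩) (mem_comp.2 ⟨y, hsub x hx y hy, hR y⟩))

theorem Prune_h11_card (F : Finset (V × V)) : F.card = ∑ x, (row F x).card := by
  rw [card_eq_sum_card_fiberwise (f := Prod.fst) (t := univ) (s := F) (fun _ _ => mem_univ _)]
  refine sum_congr rfl fun x _ => ?_
  refine card_bij' (fun e _ => e.2) (fun y _ => (x, y)) ?_ ?_ ?_ ?_
  · intro e he
    obtain ⟨h1, h2⟩ := mem_filter.1 he
    rw [mem_row, ← h2]; exact h1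
  · intro y hy
    exact mem_filter.2 ⟨mem_row.1 hy, rfl⟩
  · intro e he
    rw [← (mem_filter.1 he).2]
  · intro y _
    rfl

theorem Prune_h11_row (F G : Finset (V × V)) (x : V) : row (comp F G) x = nb G (row F x) := by
  ext z
  simp only [mem_row, mem_comp, mem_nb]

theorem rows_sum [Nonempty V] (Γ F : Finset (V × V)) (hR : Refl Γ) (hB : Bad Γ) (hS : Star Γ)
    (hF : Refl F) (hA : Anti (comp F Γ)) :
    (comp (comp F Γ) Γ).card + F.card < 2 * (comp F Γ).card := by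
  obtain ⟨x0, hx0⟩ := exists_row_not_closed Γ F hR hB hF hA
  rw [Prune_h11_card (comp (comp F Γ) Γ), Prune_h11_card F, Prune_h11_card (comp F Γ),
    ← sum_add_distrib, mul_sum]
  simp only [Prune_h11_row]
  refine sum_lt_sum (fun x _ => ?_) ⟨x0, mem_univ _, hS _ hx0⟩
  by_cases h : nb Γ (row F x) = row F x
  · rw [h, h]; omega
  · exact (hS _ h).le

end Crest.Agent.R57
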